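import Vale.Agent.P065.UB.Defs

/-!
# P065: limit of `e_k(n) / n`, row B (helper625)
-/

set_option autoImplicit false

namespace Vale.Agent.P065.R2.H841.H625

open Finset Vale.Agent.P065.UB

open Classical in
theorem card_left {P : Finset Pt} (hP : Good P) (c : ℕ) :
    #{p ∈ P | #{u ∈ P | u.1 < p.1} ≤ c} ≤ c + 1 := by
  rcases (filter (fun p : Pt => #{u ∈ P | u.1 < p.1} ≤ c) P).eq_empty_or_nonempty with h | h
  · rw [h, card_empty]
    exact Nat.zero_le _
  · obtain ⟨p, hp, hmax⟩ := exists_max_image _ Prod.fst h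
    have h1 : (filter (fun p : Pt => #{u ∈ P | u.1 < p.1} ≤ c) P).erase p ⊆
        {u ∈ P | u.1 < p.1} := by
      intro u hu
      rw [mem_erase] at hu
      have hu2 := (mem_filter.1 hu.2).1
      refine mem_filter.2 ⟨hu2, lt_of_le_of_ne (hmax u hu.2) fun he => hu.1 ?_⟩
      exact hP.xinj u hu2 p (mem_filter.1 hp).1 he
    have h2 := card_le_card h1
    have h3 := (mem_filter.1 hp).2
    have h4 := card_erase_add_one hp
    omega

open Classical in
theorem card_right {P : Finset Pt} (hP : Good P) (c : ℕ) :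
    #{p ∈ P | #{u ∈ P | p.1 < u.1} ≤ c} ≤ c + 1 := by
  rcases (filter (fun p : Pt => #{u ∈ P | p.1 < u.1} ≤ c) P).eq_empty_or_nonempty with h | h
  · rw [h, card_empty]
    exact Nat.zero_le _
  · obtain ⟨p, hp, hmin⟩ := exists_min_image _ Prod.fst h
    have h1 : (filter (fun p : Pt => #{u ∈ P | p.1 < u.1} ≤ c) P).erase p ⊆
        {u ∈ P | p.1 < u.1} := by
      intro u hu
      rw [mem_erase] at hu
      have hu2 := (mem_filter.1 hu.2).1
      refine mem_filter.2 ⟨hu2, lt_of_le_of_ne (hmin u hu.2) fun he => hu.1 ?_⟩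
      exact hP.xinj u hu2 p (mem_filter.1 hp).1 he.symm
    have h2 := card_le_card h1
    have h3 := (mem_filter.1 hp).2
    have h4 := card_erase_add_one hp
    omega

open Classical in
/-- ROW B -/
theorem specB {P : Finset Pt} (hP : Good P) (k : ℕ) :
    #{p ∈ P | (∃ m, #{u ∈ P | ht m u < ht m p} ≤ k) ∧
      ∃ m, #{u ∈ P | ht m p < ht m u} ≤ k} ≤ 4 * k + 3 := by
  have hsub : {p ∈ P | (∃ m, #{u ∈ P | ht m u < ht m p} ≤ k) ∧
      ∃ m, #{u ∈ P | ht m p < ht m u} ≤ k} ⊆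
      {p ∈ P | #{u ∈ P | u.1 < p.1} ≤ 2 * k + 1} ∪ {p ∈ P | #{u ∈ P | p.1 < u.1} ≤ 2 * k} := by
    intro p hp
    obtain ⟨hpP, ⟨m₁, h₁⟩, ⟨m₂, h₂⟩⟩ := mem_filter.1 hp
    rw [mem_union, mem_filter, mem_filter]
    rcases le_or_gt m₁ m₂ with hm | hm
    · left
      refine ⟨hpP, ?_⟩
      have hcov : {u ∈ P | u.1 < p.1} ⊆ ({u ∈ P | ht m₁ u < ht m₁ p} ∪
          {u ∈ P | ht m₂ p < ht m₂ u}) ∪ {u ∈ P | u ≠ p ∧ ht m₁ u = ht m₁ p} := by
        intro u hu
        obtain ⟨huP, hlt⟩ := mem_filter.1 hu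
        rw [mem_union, mem_union, mem_filter, mem_filter, mem_filter]
        rcases lt_trichotomy (ht m₁ u) (ht m₁ p) with h | h | h
        · exact Or.inl (Or.inl ⟨huP, h⟩)
        · exact Or.inr ⟨huP, fun he => by rw [he] at hlt; exact lt_irrefl _ hlt, h⟩
        · refine Or.inl (Or.inr ⟨huP, ?_⟩)
          unfold ht at h ⊢
          nlinarith
      have hone : #{u ∈ P | u ≠ p ∧ ht m₁ u = ht m₁ p} ≤ 1 := by
        rw [card_le_one]
        intro a ha c hc
        obtain ⟨haP, hap, ha2⟩ := mem_filter.1 ha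
        obtain ⟨hcP, hcp, hc2⟩ := mem_filter.1 hc
        by_contra hac
        exact hP.gen m₁ p hpP a haP c hcP hap.symm hcp.symm hac ha2.symm hc2.symm
      have h3 := card_le_card hcov
      have h4 := card_union_le ({u ∈ P | ht m₁ u < ht m₁ p} ∪
          {u ∈ P | ht m₂ p < ht m₂ u}) {u ∈ P | u ≠ p ∧ ht m₁ u = ht m₁ p}
      have h5 := card_union_le {u ∈ P | ht m₁ u < ht m₁ p} {u ∈ P | ht m₂ p < ht m₂ u}
      omega
    · right
      refine ⟨hpP, ?_⟩
      have hcov : {u ∈ P | p.1 < u.1} ⊆ {u ∈ P | ht m₁ u < ht m₁ p} ∪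
          {u ∈ P | ht m₂ p < ht m₂ u} := by
        intro u hu
        obtain ⟨huP, hlt⟩ := mem_filter.1 hu
        rw [mem_union, mem_filter, mem_filter]
        rcases lt_or_ge (ht m₁ u) (ht m₁ p) with h | h
        · exact Or.inl ⟨huP, h⟩
        · refine Or.inr ⟨huP, ?_⟩
          unfold ht at h ⊢
          nlinarith
      have h3 := card_le_card hcov
      have h5 := card_union_le {u ∈ P | ht m₁ u < ht m₁ p} {u ∈ P | ht m₂ p < ht m₂ u}
      omega
  have h1 := card_le_card hsub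
  have h2 := card_union_le {p ∈ P | #{u ∈ P | u.1 < p.1} ≤ 2 * k + 1}
    {p ∈ P | #{u ∈ P | p.1 < u.1} ≤ 2 * k}
  have h3 := card_left hP (2 * k + 1)
  have h4 := card_right hP (2 * k)
  omega

end Vale.Agent.P065.R2.H841.H625
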